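import Mathlib

/-! # P097 (helper286): positions, basic lemmas -/

set_option linter.all false
set_option autoImplicit false

open Set Filter Metric Topology

namespace Vale.Agent.P097.H286

/-- the open strip `|Im x| < H` -/
def St (H : ℝ) : Set ℂ := {x | |x.im| < H}

theorem isOpen_St (H : ℝ) : IsOpen (St H) :=
  isOpen_lt (continuous_abs.comp Complex.continuous_im) continuous_const

theorem convex_St (H : ℝ) : Convex ℝ (St H) := by
  intro x hx y hy a b ha hb hab
  simp only [St, mem_setOf_eq, abs_lt] at hx hy ⊢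
  simp only [Complex.add_im, Complex.real_smul, Complex.mul_im, Complex.ofReal_re,
    Complex.ofReal_im, zero_mul, add_zero]
  rcases hx with ⟨hx1, hx2⟩
  rcases hy with ⟨hy1, hy2⟩
  have hb' : b = 1 - a := by linarith
  subst hb'
  rcases eq_or_lt_of_le ha with h | h
  · subst h; constructor <;> nlinarith
  · constructor <;> nlinarith

theorem closure_St_sub (H : ℝ) : closure (St H) ⊆ {x : ℂ | |x.im| ≤ H} := by
  apply closure_minimal
  · intro x hx; exact le_of_lt (show |x.im| < H from hx)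
  · exact isClosed_le (continuous_abs.comp Complex.continuous_im) continuous_const

/-- local inverse of a holomorphic function -/
theorem locInv {f : ℂ → ℂ} {a : ℂ} (hf : AnalyticAt ℂ f a) (h : deriv f a ≠ 0) :
    ∃ σ : ℂ → ℂ, AnalyticAt ℂ σ (f a) ∧ σ (f a) = a ∧ (∀ᶠ x in 𝓝 (f a), f (σ x) = x) ∧
      ∀ᶠ z in 𝓝 a, σ (f z) = z := by
  refine ⟨hf.hasStrictDerivAt.localInverse _ _ _ h, hf.analyticAt_localInverse h, ?_, ?_, ?_⟩
  · exact HasStrictFDerivAt.localInverse_apply_image ..
  · exact HasStrictDerivAt.eventually_right_inverse ..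
  · exact HasStrictDerivAt.eventually_left_inverse ..

theorem isPreconnected_punct (r : ℝ) : IsPreconnected (ball (0:ℂ) r \ {0}) := by
  rcases le_or_gt r 0 with hr | hr
  · rw [ball_eq_empty.2 hr]; simpa using isPreconnected_empty
  · have h : ball (0:ℂ) r \ {0} = Complex.exp '' {z : ℂ | z.re < Real.log r} := by
      ext x
      simp only [mem_diff, mem_ball_zero_iff, mem_singleton_iff, mem_image, mem_setOf_eq]
      constructor
      · rintro ⟨h1, h2⟩
        refine ⟨Complex.log x, ?_, Complex.exp_log h2⟩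
        rw [Complex.log_re]
        exact Real.log_lt_log (norm_pos_iff.2 h2) h1
      · rintro ⟨z, hz, rfl⟩
        refine ⟨?_, Complex.exp_ne_zero z⟩
        rw [Complex.norm_exp]
        calc Real.exp z.re < Real.exp (Real.log r) := Real.exp_lt_exp.2 hz
          _ = r := Real.exp_log hr
    rw [h]
    exact (convex_halfSpace_re_lt _).isPreconnected.image _ Complex.continuous_exp.continuousOn

/-- the interior of the closed strip -/
theorem mem_St_of_nhds {H : ℝ} {b : ℂ} (h : {x : ℂ | |x.im| ≤ H} ∈ 𝓝 b) : b ∈ St H := by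
  obtain ⟨ε, hε, hb⟩ := Metric.mem_nhds_iff.1 h
  have h1 : b + ((ε/2 : ℝ) : ℂ) * Complex.I ∈ ball b ε := by
    simp [mem_ball, dist_eq_norm, abs_of_pos hε]; linarith
  have h2 : b - ((ε/2 : ℝ) : ℂ) * Complex.I ∈ ball b ε := by
    simp [mem_ball, dist_eq_norm, abs_of_pos hε]; linarith
  have h3 := hb h1
  have h4 := hb h2
  simp only [mem_setOf_eq, Complex.add_im, Complex.sub_im, Complex.mul_im, Complex.ofReal_re,
    Complex.I_im, mul_one, Complex.ofReal_im, Complex.I_re, mul_zero, add_zero] at h3 h4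
  simp only [St, mem_setOf_eq]
  rw [abs_le] at h3 h4
  rw [abs_lt]
  constructor <;> linarith

/-- analytic cube root -/
theorem exists_cbrt {u : ℂ → ℂ} {a : ℂ} (hu : AnalyticAt ℂ u a) (h : u a ≠ 0) :
    ∃ c : ℂ → ℂ, AnalyticAt ℂ c a ∧ c a ≠ 0 ∧ ∀ᶠ t in 𝓝 a, c t ^ 3 = u t := by
  refine ⟨fun t => Complex.exp (Complex.log (u a) / 3) * Complex.exp (Complex.log (u t / u a) / 3),
    ?_, ?_, ?_⟩
  · apply AnalyticAt.mul analyticAt_const
    apply AnalyticAt.cexp
    apply AnalyticAt.div_const
    apply AnalyticAt.clog (hu.div analyticAt_const h)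
    simp [div_self h]
  · exact mul_ne_zero (Complex.exp_ne_zero _) (Complex.exp_ne_zero _)
  · have h1 : ∀ᶠ t in 𝓝 a, u t ≠ 0 := hu.continuousAt.eventually_ne h
    filter_upwards [h1] with t ht
    rw [mul_pow, ← Complex.exp_nat_mul, ← Complex.exp_nat_mul]
    have e1 : ((3:ℕ):ℂ) * (Complex.log (u a) / 3) = Complex.log (u a) := by push_cast; ring
    have e2 : ((3:ℕ):ℂ) * (Complex.log (u t / u a) / 3) = Complex.log (u t / u a) := by
      push_cast; ring
    rw [e1, e2, Complex.exp_log h, Complex.exp_log (div_ne_zero ht h)]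
    field_simp

/-- The base curve: a tuple of functions holomorphic on the strip, immersive, with natural
boundary on every point of `|Im x| = H`. -/
structure Base (H : ℝ) {ι : Type*} (G : ι → ℂ → ℂ) : Prop where
  hol : ∀ i, DifferentiableOn ℂ (G i) (St H)
  imm : ∀ b ∈ St H, ∃ i, deriv (G i) b ≠ 0
  nb : ∀ b : ℂ, |b.im| = H → ∀ ε > 0, ∀ A : ι → ℂ → ℂ,
    (∀ i, DifferentiableOn ℂ (A i) (ball b ε)) → ¬ ∀ i, ∀ x ∈ ball b ε, x ∈ St H → A i x = G i x

end Vale.Agent.P097.H286
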