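import Vale.Agent.P097.H286.Dev0

/-! # P097 (helper286): local continuation of a position, uniformised form -/

set_option linter.all false
set_option autoImplicit false

open Set Filter Metric Topology

namespace Vale.Agent.P097.H286

variable {ι : Type*}

/-- `F` is holomorphic on a disc, locally injective off the centre, `q = G ∘ F` with `F` in the strip
along a radius: then this holds on the whole punctured disc (the boundary of the strip is natural). -/
theorem core1 {G : ι → ℂ → ℂ} {H : ℝ} (hB : Base H G) {ρ : ℝ} (hρ : 0 < ρ)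
    {F : ℂ → ℂ} (hF : DifferentiableOn ℂ F (ball 0 ρ))
    (hF' : ∀ τ ∈ ball (0:ℂ) ρ, τ ≠ 0 → deriv F τ ≠ 0)
    {q : ι → ℂ → ℂ} (hq : ∀ i, DifferentiableOn ℂ (q i) (ball 0 ρ \ {0}))
    (hS : ∀ s : ℝ, 0 < s → s < ρ → F s ∈ St H)
    (he : ∀ s : ℝ, 0 < s → s < ρ → ∀ i, q i s = G i (F s)) :
    ∀ τ ∈ ball (0:ℂ) ρ, τ ≠ 0 → F τ ∈ St H ∧ ∀ i, q i τ = G i (F τ) := by
  classical
  have hBo : IsOpen (ball (0:ℂ) ρ \ {0}) := isOpen_ball.sdiff isClosed_singleton
  set O : Set ℂ := {τ | τ ∈ ball (0:ℂ) ρ \ {0} ∧ F τ ∈ St H} with hO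
  have hOo : IsOpen O := (hF.continuousOn.mono sdiff_subset).isOpen_inter_preimage hBo (isOpen_St H)
  have hs0 : ((ρ / 2 : ℝ) : ℂ) ∈ O := by
    refine ⟨⟨?_, ?_⟩, hS _ (by linarith) (by linarith)⟩
    · simp [mem_ball_zero_iff, abs_of_pos hρ]; linarith
    · simp only [mem_singleton_iff, Complex.ofReal_eq_zero]; linarith
  set W : Set ℂ := connectedComponentIn O ((ρ / 2 : ℝ) : ℂ) with hW
  have hWo : IsOpen W := hOo.connectedComponentIn
  have hWp : IsPreconnected W := isPreconnected_connectedComponentIn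
  have hWO : W ⊆ O := connectedComponentIn_subset _ _
  have hWs : ((ρ / 2 : ℝ) : ℂ) ∈ W := mem_connectedComponentIn hs0
  -- the real segment
  have hreal : ∀ s : ℝ, 0 < s → s < ρ → (s : ℂ) ∈ W := by
    have h1 : IsPreconnected ((fun s : ℝ => (s : ℂ)) '' Ioo 0 ρ) :=
      isPreconnected_Ioo.image _ Complex.continuous_ofReal.continuousOn
    have h2 : (fun s : ℝ => (s : ℂ)) '' Ioo 0 ρ ⊆ O := by
      rintro _ ⟨s, hs, rfl⟩
      refine ⟨⟨?_, ?_⟩, hS _ hs.1 hs.2⟩
      · simp [mem_ball_zero_iff, abs_of_pos hs.1, hs.2]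
      · simp only [mem_singleton_iff, Complex.ofReal_eq_zero]; exact hs.1.ne'
    have h3 := h1.subset_connectedComponentIn (x := ((ρ / 2 : ℝ) : ℂ))
      ⟨ρ / 2, ⟨by linarith, by linarith⟩, rfl⟩ h2
    intro s hs1 hs2
    exact h3 ⟨s, ⟨hs1, hs2⟩, rfl⟩
  have hqA : ∀ i, AnalyticOnNhd ℂ (q i) W := fun i =>
    ((hq i).analyticOnNhd hBo).mono fun x hx => (hWO hx).1
  have hGF : ∀ i, AnalyticOnNhd ℂ (fun τ => G i (F τ)) W := by
    intro i
    have h1 : DifferentiableOn ℂ (fun τ => G i (F τ)) O := by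
      apply (hB.hol i).comp (hF.mono fun x hx => hx.1.1)
      exact fun x hx => hx.2
    exact (h1.analyticOnNhd hOo).mono hWO
  have hWeq : ∀ i, EqOn (q i) (fun τ => G i (F τ)) W := by
    intro i
    apply (hqA i).eqOn_of_preconnected_of_frequently_eq (hGF i) hWp hWs
    -- frequently along the reals
    have h1 : Tendsto (fun s : ℝ => (s : ℂ)) (𝓝[≠] (ρ / 2)) (𝓝[≠] ((ρ / 2 : ℝ) : ℂ)) := by
      apply tendsto_nhdsWithin_of_tendsto_nhds_of_eventually_within
      · exact (Complex.continuous_ofReal.tendsto _).mono_left nhdsWithin_le_nhds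
      · filter_upwards [self_mem_nhdsWithin] with s hs
        intro h
        exact hs (Complex.ofReal_injective h)
    apply h1.frequently
    apply Eventually.frequently
    have h2 : ∀ᶠ s : ℝ in 𝓝 (ρ / 2), s ∈ Ioo 0 ρ := Ioo_mem_nhds (by linarith) (by linarith)
    filter_upwards [h2.filter_mono nhdsWithin_le_nhds] with s hs
    exact he s hs.1 hs.2 i
  -- W is everything
  have key : ball (0:ℂ) ρ \ {0} ⊆ W := by
    apply (isPreconnected_punct ρ).subset_of_closure_inter_subset hWo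
    · exact ⟨_, hs0.1, hWs⟩
    rintro τ ⟨hτc, hτb, hτ0⟩
    have hτ0' : τ ≠ 0 := hτ0
    by_cases hτS : F τ ∈ St H
    · have hτO : τ ∈ O := ⟨⟨hτb, hτ0⟩, hτS⟩
      obtain ⟨ε, hε, hεO⟩ := Metric.isOpen_iff.1 hOo τ hτO
      obtain ⟨y, hyW, hy⟩ := Metric.mem_closure_iff.1 hτc ε hε
      have hyb : y ∈ ball τ ε := by rw [mem_ball, dist_comm]; exact hy
      have h1 : ball τ ε ⊆ connectedComponentIn O y :=
        (convex_ball τ ε).isPreconnected.subset_connectedComponentIn hyb hεO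
      have h2 : connectedComponentIn O y = W := (connectedComponentIn_eq hyW).symm
      rw [h2] at h1
      exact h1 (mem_ball_self hε)
    · exfalso
      have hFc : ContinuousAt F τ := (hF.differentiableAt (isOpen_ball.mem_nhds hτb)).continuousAt
      have h1 : F τ ∈ closure (St H) := by
        have h2 : F τ ∈ closure (F '' W) :=
          hFc.continuousWithinAt.mem_closure_image hτc
        exact closure_mono (by rintro _ ⟨x, hx, rfl⟩; exact (hWO hx).2) h2
      have h3 : |(F τ).im| ≤ H := closure_St_sub H h1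
      have h4 : |(F τ).im| = H := le_antisymm h3 (not_lt.1 hτS)
      have hFa : AnalyticAt ℂ F τ := (hF.analyticOnNhd isOpen_ball) τ hτb
      obtain ⟨σ, hσa, hσe, hσr, hσl⟩ := locInv hFa (hF' τ hτb hτ0')
      -- a ball round `F τ`
      have h5 : ∀ᶠ x in 𝓝 (F τ), AnalyticAt ℂ σ x ∧ F (σ x) = x ∧ σ x ∈ ball (0:ℂ) ρ \ {0} := by
        have h6 : ∀ᶠ x in 𝓝 (F τ), σ x ∈ ball (0:ℂ) ρ \ {0} := by
          apply hσa.continuousAt.eventually_mem
          rw [hσe]
          exact hBo.mem_nhds ⟨hτb, hτ0⟩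
        filter_upwards [hσa.eventually_analyticAt, hσr, h6] with x h1 h2 h3
        exact ⟨h1, h2, h3⟩
      obtain ⟨ε, hε, hεb⟩ := Metric.eventually_nhds_iff_ball.1 h5
      have h7 : ∀ᶠ z in 𝓝 τ, σ (F z) = z ∧ F z ∈ ball (F τ) ε := by
        filter_upwards [hσl, hFc.eventually_mem (ball_mem_nhds _ hε)] with z h1 h2
        exact ⟨h1, h2⟩
      obtain ⟨δ, hδ, hδb⟩ := Metric.eventually_nhds_iff_ball.1 h7
      obtain ⟨w, hwW, hw⟩ := Metric.mem_closure_iff.1 hτc δ hδ
      have hwb : w ∈ ball τ δ := by rw [mem_ball, dist_comm]; exact hw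
      obtain ⟨hw1, hw2⟩ := hδb w hwb
      set C : Set ℂ := σ '' (ball (F τ) ε ∩ St H) with hC
      have hCp : IsPreconnected C := by
        apply ((convex_ball (F τ) ε).inter (convex_St H)).isPreconnected.image
        intro x hx
        exact (hεb x hx.1).1.continuousAt.continuousWithinAt
      have hCO : C ⊆ O := by
        rintro _ ⟨x, hx, rfl⟩
        obtain ⟨_, h2, h3⟩ := hεb x hx.1
        exact ⟨h3, by rw [h2]; exact hx.2⟩
      have hwC : w ∈ C := ⟨F w, ⟨hw2, (hWO hwW).2⟩, hw1⟩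
      have hCW : C ⊆ W := by
        have h1 := hCp.subset_connectedComponentIn hwC hCO
        rwa [← connectedComponentIn_eq hwW] at h1
      refine hB.nb (F τ) h4 ε hε (fun i x => q i (σ x)) ?_ ?_
      · intro i x hx
        obtain ⟨h1, h2, h3⟩ := hεb x hx
        apply DifferentiableAt.differentiableWithinAt
        exact ((hq i).differentiableAt (hBo.mem_nhds h3)).comp x h1.differentiableAt
      · intro i x hx hxS
        have h1 : σ x ∈ W := hCW ⟨x, ⟨hx, hxS⟩, rfl⟩
        have h2 := hWeq i h1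
        simp only at h2
        rw [h2, (hεb x hx).2.1]
  intro τ hτ hτ0
  have h1 : τ ∈ W := key ⟨hτ, hτ0⟩
  exact ⟨(hWO h1).2, fun i => hWeq i h1⟩

/-- the centre is mapped into the open strip as well -/
theorem core2 {H : ℝ} {ρ : ℝ} (hρ : 0 < ρ) {F : ℂ → ℂ} (hF : DifferentiableOn ℂ F (ball 0 ρ))
    (hF' : ∀ τ ∈ ball (0:ℂ) ρ, τ ≠ 0 → deriv F τ ≠ 0)
    (hS : ∀ τ ∈ ball (0:ℂ) ρ, τ ≠ 0 → F τ ∈ St H) : F 0 ∈ St H := by
  have h0 : (0:ℂ) ∈ ball (0:ℂ) ρ := mem_ball_self hρ
  have hFa : AnalyticAt ℂ F 0 := (hF.analyticOnNhd isOpen_ball) 0 h0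
  -- a real point near 0
  rcases hFa.eventually_constant_or_nhds_le_map_nhds with h | h
  · exfalso
    obtain ⟨ε, hε, hb⟩ := Metric.eventually_nhds_iff_ball.1 h
    set s : ℝ := min ε ρ / 2 with hs
    have hs0 : 0 < s := by positivity
    have hs1 : s < ε := by have := min_le_left ε ρ; linarith
    have hs2 : s < ρ := by have := min_le_right ε ρ; linarith
    have hs3 : (s : ℂ) ∈ ball (0:ℂ) ρ := by simp [mem_ball_zero_iff, abs_of_pos hs0, hs2]
    have hs4 : (s : ℂ) ∈ ball (0:ℂ) ε := by simp [mem_ball_zero_iff, abs_of_pos hs0, hs1]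
    have hs5 : (s : ℂ) ≠ 0 := by simpa using hs0.ne'
    apply hF' s hs3 hs5
    have : F =ᶠ[𝓝 (s:ℂ)] fun _ => F 0 := by
      filter_upwards [isOpen_ball.mem_nhds hs4] with z hz
      exact hb z hz
    rw [this.deriv_eq]
    simp
  · apply mem_St_of_nhds
    apply h
    rw [mem_map]
    have hFc : ∀ τ ∈ ball (0:ℂ) ρ, |(F τ).im| ≤ H := by
      intro τ hτ
      by_cases hτ0 : τ = 0
      · subst hτ0
        -- limit of real points
        have h1 : Tendsto (fun s : ℝ => |(F s).im|) (𝓝[>] 0) (𝓝 |(F 0).im|) := by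
          have h2 : Tendsto (fun s : ℝ => F s) (𝓝[>] 0) (𝓝 (F 0)) := by
            have h3 : Tendsto (fun s : ℝ => (s:ℂ)) (𝓝[>] 0) (𝓝 (0:ℂ)) := by
              have := (Complex.continuous_ofReal.tendsto 0).mono_left
                (nhdsWithin_le_nhds (s := Ioi (0:ℝ)))
              simpa using this
            exact hFa.continuousAt.tendsto.comp h3
          exact ((continuous_abs.comp Complex.continuous_im).tendsto _).comp h2
        apply le_of_tendsto h1
        have h4 : ∀ᶠ s : ℝ in 𝓝[>] 0, s < ρ ∧ 0 < s := by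
          filter_upwards [self_mem_nhdsWithin,
            nhdsWithin_le_nhds (Iio_mem_nhds hρ)] with s h1 h2
          exact ⟨h2, h1⟩
        filter_upwards [h4] with s hs
        have := hS s (by simp [mem_ball_zero_iff, abs_of_pos hs.2, hs.1]) (by simpa using hs.2.ne')
        exact le_of_lt (show |(F s).im| < H from this)
      · exact le_of_lt (show |(F τ).im| < H from hS τ hτ hτ0)
    filter_upwards [isOpen_ball.mem_nhds h0] with τ hτ
    exact hFc τ hτ

end Vale.Agent.P097.H286
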