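import Vale.Agent.P097.H286.Dev1

/-! # P097 (helper286): local continuation of a position -/

set_option linter.all false
set_option autoImplicit false

open Set Filter Metric Topology

namespace Vale.Agent.P097.H286

variable {ι : Type*}

/-- **Local continuation at the end of a segment (normal form).**  The data `g i` are holomorphic on
a punctured disc, `M = t² θ'³` is holomorphic on the disc and not zero, `g = G ∘ θ` along the
positive reals, with `θ` in the strip.  Then `θ` extends to a disc, with values in the strip. -/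
theorem ext0 {G : ι → ℂ → ℂ} {H : ℝ} (hB : Base H G) {r : ℝ} (hr : 0 < r) {g : ι → ℂ → ℂ}
    (hg : ∀ i, DifferentiableOn ℂ (g i) (ball 0 r \ {0})) {M : ℂ → ℂ}
    (hM : DifferentiableOn ℂ M (ball 0 r)) (hMne : ¬ ∀ᶠ t in 𝓝 (0:ℂ), M t = 0) {θ : ℂ → ℂ}
    (hθ : ∀ s : ℝ, 0 < s → s < r → AnalyticAt ℂ θ s ∧ θ s ∈ St H ∧ (∀ i, g i s = G i (θ s)) ∧
      (deriv θ s) ^ 3 * (s:ℂ) ^ 2 = M s) :
    ∃ r' > 0, r' ≤ r ∧ ∃ θ' : ℂ → ℂ, DifferentiableOn ℂ θ' (ball 0 r') ∧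
      (∀ t ∈ ball (0:ℂ) r', θ' t ∈ St H) ∧
      (∀ t ∈ ball (0:ℂ) r', t ≠ 0 → ∀ i, g i t = G i (θ' t)) ∧
      ∀ s : ℝ, 0 < s → s < r' → θ' s = θ s := by
  classical
  have h0r : (0:ℂ) ∈ ball (0:ℂ) r := mem_ball_self hr
  have hMa : AnalyticAt ℂ M 0 := (hM.analyticOnNhd isOpen_ball) 0 h0r
  obtain ⟨n, u, hu, hu0, huM⟩ := hMa.exists_eventuallyEq_pow_smul_nonzero_iff.2 hMne
  obtain ⟨c, hc, hc0, hcu⟩ := exists_cbrt hu hu0
  -- a common radius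
  have hev : ∀ᶠ t in 𝓝 (0:ℂ), AnalyticAt ℂ c t ∧ c t ≠ 0 ∧ M t = t ^ n * c t ^ 3 := by
    filter_upwards [hc.eventually_analyticAt, hc.continuousAt.eventually_ne hc0, huM, hcu] with
      t h1 h2 h3 h4
    refine ⟨h1, h2, ?_⟩
    rw [h3, h4]; simp
  obtain ⟨r₁, hr₁, hb₁⟩ := Metric.eventually_nhds_iff_ball.1 hev
  set ρ : ℝ := min (min r₁ r) 1 with hρd
  have hρ : 0 < ρ := by positivity
  have hρ1 : ρ ≤ 1 := min_le_right _ _
  have hρr : ρ ≤ r := (min_le_left _ _).trans (min_le_right _ _)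
  have hρr₁ : ρ ≤ r₁ := (min_le_left _ _).trans (min_le_left _ _)
  have hcube : ∀ τ ∈ ball (0:ℂ) ρ, τ ^ 3 ∈ ball (0:ℂ) ρ := by
    intro τ hτ
    rw [mem_ball_zero_iff] at hτ ⊢
    rw [norm_pow]
    have h1 : ‖τ‖ ≤ 1 := hτ.le.trans hρ1
    have h2 : 0 ≤ ‖τ‖ := norm_nonneg _
    calc ‖τ‖ ^ 3 ≤ ‖τ‖ ^ 1 := pow_le_pow_of_le_one h2 h1 (by norm_num)
      _ = ‖τ‖ := pow_one _
      _ < ρ := hτ
  have hcubeR : ∀ s : ℝ, 0 < s → s < ρ → 0 < s ^ 3 ∧ s ^ 3 < ρ := by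
    intro s h1 h2
    refine ⟨by positivity, ?_⟩
    calc s ^ 3 ≤ s ^ 1 := pow_le_pow_of_le_one h1.le (h2.le.trans hρ1) (by norm_num)
      _ = s := pow_one _
      _ < ρ := h2
  -- the derivative of `s ↦ θ (s³)` up to a cube root of unity
  set f : ℂ → ℂ := fun τ => 3 * τ ^ n * c (τ ^ 3) with hf
  have hfd : DifferentiableOn ℂ f (ball 0 ρ) := by
    intro τ hτ
    apply DifferentiableAt.differentiableWithinAt
    have h1 : DifferentiableAt ℂ c (τ ^ 3) :=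
      (hb₁ _ (ball_subset_ball hρr₁ (hcube τ hτ))).1.differentiableAt
    have h2 : DifferentiableAt ℂ (fun τ : ℂ => c (τ ^ 3)) τ :=
      DifferentiableAt.comp τ h1 (by fun_prop)
    exact (((differentiableAt_const _).mul (differentiableAt_pow _)).mul h2)
  have hf0 : ∀ τ ∈ ball (0:ℂ) ρ, τ ≠ 0 → f τ ≠ 0 := by
    intro τ hτ hτ0
    have h1 := (hb₁ _ (ball_subset_ball hρr₁ (hcube τ hτ))).2.1
    exact mul_ne_zero (mul_ne_zero (by norm_num) (pow_ne_zero _ hτ0)) h1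
  set Θ : ℂ → ℂ := fun τ => θ (τ ^ 3) with hΘ
  have hθs : ∀ s : ℝ, 0 < s → s < ρ → HasDerivAt Θ (deriv θ ((s:ℂ) ^ 3) * (3 * (s:ℂ) ^ 2)) s := by
    intro s h1 h2
    obtain ⟨h3, h4⟩ := hcubeR s h1 h2
    have h5 := (hθ (s ^ 3) h3 (h4.trans_le hρr)).1.differentiableAt.hasDerivAt
    have h6 : (((s ^ 3 : ℝ)) : ℂ) = (s:ℂ) ^ 3 := by push_cast; ring
    rw [h6] at h5
    have h7 : HasDerivAt (fun τ : ℂ => τ ^ 3) (3 * (s:ℂ) ^ 2) s := by
      simpa using hasDerivAt_pow 3 (s:ℂ)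
    exact h5.comp (s:ℂ) h7
  have hω3 : ∀ s : ℝ, 0 < s → s < ρ → (deriv θ ((s:ℂ) ^ 3) * (3 * (s:ℂ) ^ 2) / f s) ^ 3 = 1 := by
    intro s h1 h2
    obtain ⟨h3, h4⟩ := hcubeR s h1 h2
    have h5 := (hθ (s ^ 3) h3 (h4.trans_le hρr)).2.2.2
    have h6 : (((s ^ 3 : ℝ)) : ℂ) = (s:ℂ) ^ 3 := by push_cast; ring
    rw [h6] at h5
    have hsb : (s:ℂ) ∈ ball (0:ℂ) ρ := by simp [mem_ball_zero_iff, abs_of_pos h1, h2]
    have hs0 : (s:ℂ) ≠ 0 := by simpa using h1.ne'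
    have h7 := (hb₁ _ (ball_subset_ball hρr₁ (hcube s hsb))).2.2
    have h8 := hf0 s hsb hs0
    rw [div_pow, div_eq_one_iff_eq (pow_ne_zero 3 h8)]
    have h9 : f s ^ 3 = 27 * (((s:ℂ) ^ 3) ^ n * c ((s:ℂ) ^ 3) ^ 3) := by
      simp only [hf]; ring
    rw [h9, ← h7, ← h5]; ring
  -- the cube root of unity is constant
  have hωc : ∀ s : ℝ, 0 < s → s < ρ →
      deriv θ ((s:ℂ) ^ 3) * (3 * (s:ℂ) ^ 2) / f s =
      deriv θ (((ρ / 2 : ℝ):ℂ) ^ 3) * (3 * ((ρ / 2 : ℝ):ℂ) ^ 2) / f ((ρ / 2 : ℝ):ℂ) := by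
    set om : ℝ → ℂ := fun s => deriv θ ((s:ℂ) ^ 3) * (3 * (s:ℂ) ^ 2) / f s with hom
    have hcont : ContinuousOn om (Ioo 0 ρ) := by
      intro s hs
      apply ContinuousAt.continuousWithinAt
      obtain ⟨h3, h4⟩ := hcubeR s hs.1 hs.2
      have h5 := (hθ (s ^ 3) h3 (h4.trans_le hρr)).1.deriv.continuousAt
      have h6 : (((s ^ 3 : ℝ)) : ℂ) = (s:ℂ) ^ 3 := by push_cast; ring
      rw [h6] at h5
      have hsb : (s:ℂ) ∈ ball (0:ℂ) ρ := by simp [mem_ball_zero_iff, abs_of_pos hs.1, hs.2]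
      have hs0 : (s:ℂ) ≠ 0 := by simpa using hs.1.ne'
      have h7 : ContinuousAt (fun s : ℝ => deriv θ ((s:ℂ) ^ 3)) s := by
        have h8 : ContinuousAt (fun s : ℝ => (s:ℂ) ^ 3) s := by fun_prop
        exact ContinuousAt.comp (f := fun s : ℝ => (s:ℂ) ^ 3) (g := deriv θ) h5 h8
      have h9 : ContinuousAt (fun s : ℝ => f s) s := by
        have h10 := (hfd.differentiableAt (isOpen_ball.mem_nhds hsb)).continuousAt
        exact ContinuousAt.comp (f := fun s : ℝ => (s:ℂ)) (g := f) h10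
          Complex.continuous_ofReal.continuousAt
      exact (h7.mul (by fun_prop)).div h9 (hf0 s hsb hs0)
    have him : IsPreconnected (om '' Ioo 0 ρ) := isPreconnected_Ioo.image _ hcont
    have hfin : Set.Finite {z : ℂ | z ^ 3 = 1} := by
      have : {z : ℂ | z ^ 3 = 1} ⊆ ((Polynomial.nthRoots 3 (1:ℂ)).toFinset : Set ℂ) := by
        intro z hz
        simp only [Finset.mem_coe, Multiset.mem_toFinset]
        exact (Polynomial.mem_nthRoots (by norm_num)).2 hz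
      exact (Finset.finite_toSet _).subset this
    have hsub : om '' Ioo 0 ρ ⊆ {z : ℂ | z ^ 3 = 1} := by
      rintro _ ⟨s, hs, rfl⟩
      exact hω3 s hs.1 hs.2
    have htd := (hfin.countable.isTotallyDisconnected) _ hsub him
    intro s h1 h2
    exact htd ⟨s, ⟨h1, h2⟩, rfl⟩ ⟨ρ / 2, ⟨by linarith, by linarith⟩, rfl⟩
  set ω : ℂ := deriv θ (((ρ / 2 : ℝ):ℂ) ^ 3) * (3 * ((ρ / 2 : ℝ):ℂ) ^ 2) / f ((ρ / 2 : ℝ):ℂ) with hω
  have hω1 : ω ^ 3 = 1 := hω3 (ρ / 2) (by linarith) (by linarith)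
  have hω0 : ω ≠ 0 := by
    intro h; rw [h] at hω1; norm_num at hω1
  -- the primitive
  obtain ⟨F, hF0, hFd⟩ := Complex.IsExactOn.with_val_at
    ((hfd.const_mul ω).isExactOn_ball) ((ρ / 2 : ℝ) : ℂ) (Θ ((ρ / 2 : ℝ) : ℂ))
  have hFdiff : DifferentiableOn ℂ F (ball 0 ρ) := fun τ hτ =>
    (hFd τ hτ).differentiableAt.differentiableWithinAt
  have hFΘ : ∀ s : ℝ, 0 < s → s < ρ → F s = Θ s := by
    have hd : ∀ s : ℝ, 0 < s → s < ρ → HasDerivAt (fun s : ℝ => F s - Θ s) 0 s := by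
      intro s h1 h2
      have hsb : (s:ℂ) ∈ ball (0:ℂ) ρ := by simp [mem_ball_zero_iff, abs_of_pos h1, h2]
      have hs0 : (s:ℂ) ≠ 0 := by simpa using h1.ne'
      have h3 := (hFd s hsb).sub (hθs s h1 h2)
      have h4 : ω * f s - deriv θ ((s:ℂ) ^ 3) * (3 * (s:ℂ) ^ 2) = 0 := by
        rw [← hωc s h1 h2, div_mul_cancel₀ _ (hf0 s hsb hs0), sub_self]
      rw [h4] at h3
      exact h3.comp_ofReal
    intro s h1 h2
    have h3 := isOpen_Ioo.is_const_of_deriv_eq_zero (𝕜 := ℝ) (s := Ioo 0 ρ)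
      (f := fun s : ℝ => F s - Θ s) isPreconnected_Ioo
      (fun s hs => (hd s hs.1 hs.2).differentiableAt.differentiableWithinAt)
      (fun s hs => (hd s hs.1 hs.2).deriv) (x := s) (y := ρ / 2) ⟨h1, h2⟩
      ⟨by linarith, by linarith⟩
    rw [hF0, sub_self] at h3
    exact sub_eq_zero.1 h3
  have hFne : ∀ τ ∈ ball (0:ℂ) ρ, τ ≠ 0 → deriv F τ ≠ 0 := by
    intro τ hτ hτ0
    rw [(hFd τ hτ).deriv]
    exact mul_ne_zero hω0 (hf0 τ hτ hτ0)
  have hqd : ∀ i, DifferentiableOn ℂ (fun τ => g i (τ ^ 3)) (ball 0 ρ \ {0}) := by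
    intro i
    apply (hg i).comp (by fun_prop)
    rintro τ ⟨h1, h2⟩
    exact ⟨ball_subset_ball hρr (hcube τ h1), pow_ne_zero 3 h2⟩
  have hmain := core1 hB hρ hFdiff hFne hqd
    (by
      intro s h1 h2
      obtain ⟨h3, h4⟩ := hcubeR s h1 h2
      rw [hFΘ s h1 h2]
      have := (hθ (s ^ 3) h3 (h4.trans_le hρr)).2.1
      simp only [hΘ]
      push_cast at this
      exact this)
    (by
      intro s h1 h2 i
      obtain ⟨h3, h4⟩ := hcubeR s h1 h2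
      rw [hFΘ s h1 h2]
      have := (hθ (s ^ 3) h3 (h4.trans_le hρr)).2.2.1 i
      simp only [hΘ]
      push_cast at this
      exact this)
  have hF0S : F 0 ∈ St H := core2 hρ hFdiff hFne fun τ h1 h2 => (hmain τ h1 h2).1
  -- descend
  obtain ⟨i₀, hi₀⟩ := hB.imm (F 0) hF0S
  have hGa : AnalyticAt ℂ (G i₀) (F 0) := ((hB.hol i₀).analyticOnNhd (isOpen_St H)) _ hF0S
  obtain ⟨κ, hκa, hκe, hκr, hκl⟩ := locInv hGa hi₀
  have hFc : ContinuousAt F 0 :=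
    (hFdiff.differentiableAt (isOpen_ball.mem_nhds (mem_ball_self hρ))).continuousAt
  have hev2 : ∀ᶠ τ in 𝓝 (0:ℂ), κ (G i₀ (F τ)) = F τ ∧ AnalyticAt ℂ κ (G i₀ (F τ)) ∧
      τ ∈ ball (0:ℂ) ρ := by
    have h1 : ∀ᶠ τ in 𝓝 (0:ℂ), κ (G i₀ (F τ)) = F τ := hFc.eventually hκl
    have h2 : ContinuousAt (fun τ => G i₀ (F τ)) 0 :=
      ContinuousAt.comp (f := F) (g := G i₀) hGa.continuousAt hFc
    have h3 : ∀ᶠ τ in 𝓝 (0:ℂ), AnalyticAt ℂ κ (G i₀ (F τ)) := h2.eventually hκa.eventually_analyticAt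
    filter_upwards [h1, h3, isOpen_ball.mem_nhds (mem_ball_self hρ)] with τ a b c
    exact ⟨a, b, c⟩
  obtain ⟨ρ', hρ', hb'⟩ := Metric.eventually_nhds_iff_ball.1 hev2
  -- cube roots
  have hroot : ∀ (δ : ℝ), 0 < δ → ∀ t : ℂ, ‖t‖ < δ ^ 3 → ∃ τ : ℂ, τ ^ 3 = t ∧ ‖τ‖ < δ := by
    intro δ hδ t ht
    obtain ⟨τ, hτ⟩ := IsAlgClosed.exists_pow_nat_eq t (n := 3) (by norm_num)
    refine ⟨τ, hτ, ?_⟩
    rw [← hτ, norm_pow] at ht
    exact lt_of_pow_lt_pow_left₀ 3 hδ.le ht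
  set r' : ℝ := min (ρ' ^ 3) r with hr'
  have hr'0 : 0 < r' := by positivity
  set θ' : ℂ → ℂ := fun t => if t = 0 then F 0 else κ (g i₀ t) with hθ'
  have hval : ∀ τ ∈ ball (0:ℂ) ρ', τ ≠ 0 → θ' (τ ^ 3) = F τ := by
    intro τ hτ hτ0
    obtain ⟨h1, h2, h3⟩ := hb' τ hτ
    have h4 := (hmain τ h3 hτ0).2 i₀
    simp only [hθ', if_neg (pow_ne_zero 3 hτ0)]
    rw [h4, h1]
  have hvals : ∀ t ∈ ball (0:ℂ) r', t ≠ 0 → ∃ τ ∈ ball (0:ℂ) ρ', τ ≠ 0 ∧ τ ^ 3 = t := by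
    intro t ht ht0
    obtain ⟨τ, hτ1, hτ2⟩ := hroot ρ' hρ' t (by
      rw [mem_ball_zero_iff] at ht; exact ht.trans_le (min_le_left _ _))
    refine ⟨τ, by rwa [mem_ball_zero_iff], ?_, hτ1⟩
    rintro rfl
    apply ht0
    rw [← hτ1]; simp
  refine ⟨r', hr'0, min_le_right _ _, θ', ?_, ?_, ?_, ?_⟩
  · apply (Complex.differentiableOn_compl_singleton_and_continuousAt_iff
      (isOpen_ball.mem_nhds (mem_ball_self hr'0))).1
    constructor
    · rintro t ⟨ht, ht0⟩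
      have ht0' : t ≠ 0 := ht0
      apply DifferentiableAt.differentiableWithinAt
      obtain ⟨τ, hτ, hτ0, rfl⟩ := hvals t ht ht0
      obtain ⟨h1, h2, h3⟩ := hb' τ hτ
      have h4 := (hmain τ h3 hτ0).2 i₀
      have h5 : DifferentiableAt ℂ κ (g i₀ (τ ^ 3)) := by rw [h4]; exact h2.differentiableAt
      have h6 : DifferentiableAt ℂ (g i₀) (τ ^ 3) :=
        (hg i₀).differentiableAt ((isOpen_ball.sdiff isClosed_singleton).mem_nhds
          ⟨ball_subset_ball (min_le_right _ _) ht, ht0⟩)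
      have h7 : DifferentiableAt ℂ (fun t => κ (g i₀ t)) (τ ^ 3) := DifferentiableAt.comp _ h5 h6
      apply h7.congr_of_eventuallyEq
      filter_upwards [isOpen_ne.mem_nhds ht0'] with t ht
      simp only [hθ', if_neg ht]
    · -- continuity at the centre
      rw [Metric.continuousAt_iff]
      intro ε hε
      obtain ⟨δ, hδ, hδb⟩ := Metric.continuousAt_iff.1 hFc ε hε
      refine ⟨min (min (ρ' ^ 3) r) (δ ^ 3), by positivity, ?_⟩
      intro t ht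
      rw [dist_zero_right] at ht
      have hθ0 : θ' 0 = F 0 := by simp [hθ']
      rw [hθ0]
      by_cases ht0 : t = 0
      · rw [ht0, hθ0, dist_self]; exact hε
      · obtain ⟨τ, hτ, hτ0, hτt⟩ := hvals t (by
          rw [mem_ball_zero_iff]; exact ht.trans_le (min_le_left _ _)) ht0
        rw [← hτt, hval τ hτ hτ0]
        apply hδb
        rw [dist_zero_right]
        have : ‖τ‖ ^ 3 < δ ^ 3 := by
          rw [← norm_pow, hτt]; exact ht.trans_le (min_le_right _ _)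
        exact lt_of_pow_lt_pow_left₀ 3 hδ.le this
  · intro t ht
    by_cases ht0 : t = 0
    · subst ht0; simpa [hθ'] using hF0S
    · obtain ⟨τ, hτ, hτ0, rfl⟩ := hvals t ht ht0
      rw [hval τ hτ hτ0]
      exact (hmain τ (hb' τ hτ).2.2 hτ0).1
  · intro t ht ht0 i
    obtain ⟨τ, hτ, hτ0, rfl⟩ := hvals t ht ht0
    rw [hval τ hτ hτ0]
    exact (hmain τ (hb' τ hτ).2.2 hτ0).2 i
  · intro s hs1 hs2
    set x : ℝ := s ^ (((3:ℕ):ℝ)⁻¹) with hx
    have hx3 : x ^ 3 = s := Real.rpow_inv_natCast_pow hs1.le (by norm_num)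
    have hx0 : 0 < x := Real.rpow_pos_of_pos hs1 _
    have hxρ' : x < ρ' := by
      have : x ^ 3 < ρ' ^ 3 := by rw [hx3]; exact hs2.trans_le (min_le_left _ _)
      exact lt_of_pow_lt_pow_left₀ 3 hρ'.le this
    have hxb : (x:ℂ) ∈ ball (0:ℂ) ρ' := by simp [mem_ball_zero_iff, abs_of_pos hx0, hxρ']
    have hxc : (x:ℂ) ≠ 0 := by simpa using hx0.ne'
    have hxρ : x < ρ := by
      have := (hb' x hxb).2.2
      simpa [mem_ball_zero_iff, abs_of_pos hx0] using this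
    have h1 := hval x hxb hxc
    have h2 := hFΘ x hx0 hxρ
    have h3 : (x:ℂ) ^ 3 = (s:ℂ) := by rw [← hx3]; push_cast; ring
    rw [h3] at h1
    rw [h1, h2]
    simp only [hΘ]
    rw [h3]

end Vale.Agent.P097.H286
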